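import Vale.Agent.P190.BogP
import Vale.Agent.P190.Transfer
import Vale.Agent.P190.Lattice
import Vale.Agent.P190.Ring
import Vale.Agent.P190.Free

universe u

open Vale.Agent.P190 in
theorem Vale.Agent.Results.P190.NoSmallCM.result :
    ∃ (R : Type) (_ : CommRing R) (_ : IsDomain R) (_ : IsNoetherianRing R) (_ : IsLocalRing R),
      IsAdicComplete (IsLocalRing.maximalIdeal R) R ∧ ringKrullDim R = 3 ∧
      ∀ (M : Type u) [AddCommGroup M] [Module R M], Module.Finite R M → Nontrivial M →
        ∀ rs : List R, (∀ r ∈ rs, r ∈ IsLocalRing.maximalIdeal R) →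
          RingTheory.Sequence.IsRegular M rs → rs.length < 3 := by
  obtain ⟨k, _, _, μ, hμ, hB⟩ := exists_bog_field bog_charP
  obtain ⟨R, _, _, _, _, _, hfin, hcomp, hdim, op, hrel⟩ := exists_ring k μ hμ
  refine ⟨R, inferInstance, inferInstance, inferInstance, inferInstance, hcomp, hdim, ?_⟩
  intro M _ _ hM hnt rs hmem hreg
  by_contra hlen
  push Not at hlen
  let : Module (MvPowerSeries (Fin 3) k) M := Module.compHom M (algebraMap _ R)
  have : IsScalarTower (MvPowerSeries (Fin 3) k) R M :=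
    ⟨fun a r v => by rw [Algebra.smul_def, mul_smul]; rfl⟩
  have hfree : Module.Free (MvPowerSeries (Fin 3) k) M := by
    refine free_of_regular M (rs.take 3) (by simp [hlen])
      (fun r hr => hmem r (List.mem_of_mem_take hr)) ?_
    have h := hreg.toIsWeaklyRegular
    rw [← List.take_append_drop 3 rs] at h
    exact ((RingTheory.Sequence.isWeaklyRegular_append_iff M _ _).1 h).1
  have : Module.Finite (MvPowerSeries (Fin 3) k) M := Module.Finite.trans R M
  obtain ⟨ι, hι1, hι2, hι3⟩ := exists_iota k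
  let b := Module.finBasis (MvPowerSeries (Fin 3) k) M
  have : IsDomain (MvPowerSeries (Fin 3) k) := NoZeroDivisors.to_isDomain _
  have hρ : 0 < Module.finrank (MvPowerSeries (Fin 3) k) M := Module.finrank_pos
  let Ψ0 : R →ₐ[MvPowerSeries (Fin 3) k] Matrix _ _ (MvPowerSeries (Fin 3) k) :=
    (LinearMap.toMatrixAlgEquiv b).toAlgHom.comp
      (Algebra.lsmul (MvPowerSeries (Fin 3) k) (MvPowerSeries (Fin 3) k) M)
  let Ψ : R →+* Matrix _ _ (LaurentSeries (Kf k)) := ι.mapMatrix.comp Ψ0.toRingHom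
  have hΨ : ∀ a, Ψ (algebraMap _ R a) = algebraMap (LaurentSeries (Kf k)) _ (ι a) := by
    intro a
    change ι.mapMatrix (Ψ0 (algebraMap _ R a)) = _
    rw [AlgHom.commutes, Matrix.algebraMap_eq_diagonal, Matrix.algebraMap_eq_diagonal,
      RingHom.mapMatrix_apply, Matrix.diagonal_map (map_zero ι)]
    rfl
  refine no_matrices hB hρ (fun j => Ψ (op j)) (fun j a c => hι1 _) ?_
  have h := hrel.map Ψ
  simp only [hΨ, hι2, hι3] at h
  exact h
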